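import Mathlib

/-!
# P028: shifts that are well approximated along the support of psi

`W γ ψ` is the set of real `x` such that `|q x - a - γ| < ψ q` for infinitely many positive
integers `q` (with some integer `a`).  If there is a real `t` such that for every `q` in the
support of `ψ` the number `q t` is within `ψ q / 2` of `γ` modulo one, then
`t + W 0 (ψ / 2)` is contained in `W γ ψ`; hence `W γ ψ` has full measure as soon as the
homogeneous set `W 0 (ψ / 2)` has full measure.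
-/

namespace Vale.Agent.Results.P028.ShiftedSupport

open MeasureTheory

/-- the set `W_γ(ψ)` of the problem -/
def W (γ : ℝ) (ψ : ℕ → ℝ) : Set ℝ :=
  {x | {q : ℕ | 0 < q ∧ ∃ a : ℤ, |(q : ℝ) * x - a - γ| < ψ q}.Infinite}

theorem result (γ t : ℝ) (ψ : ℕ → ℝ)
    (ht : ∀ q : ℕ, 0 < q → 0 < ψ q → ∃ b : ℤ, |(q : ℝ) * t - b - γ| ≤ ψ q / 2) :
    (∀ x ∈ W 0 (fun q => ψ q / 2), x + t ∈ W γ ψ) ∧
    ((∀ᵐ x : ℝ, x ∈ W 0 (fun q => ψ q / 2)) → ∀ᵐ x : ℝ, x ∈ W γ ψ) := by
  have h1 : ∀ x ∈ W 0 (fun q => ψ q / 2), x + t ∈ W γ ψ := by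
    intro x hx
    refine Set.Infinite.mono ?_ hx
    rintro q ⟨hq, a, ha⟩
    have hpos : 0 < ψ q := by
      have := lt_of_le_of_lt (abs_nonneg _) ha
      linarith
    obtain ⟨b, hb⟩ := ht q hq hpos
    refine ⟨hq, a + b, ?_⟩
    have e : (q : ℝ) * (x + t) - ((a + b : ℤ) : ℝ) - γ =
        ((q : ℝ) * x - a - 0) + ((q : ℝ) * t - b - γ) := by
      push_cast
      ring
    rw [e]
    calc |((q : ℝ) * x - a - 0) + ((q : ℝ) * t - b - γ)|
        ≤ |(q : ℝ) * x - a - 0| + |(q : ℝ) * t - b - γ| := abs_add_le _ _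
      _ < ψ q / 2 + ψ q / 2 := add_lt_add_of_lt_of_le ha hb
      _ = ψ q := by ring
  refine ⟨h1, fun hae => ?_⟩
  have h2 : ∀ᵐ x : ℝ, x + t ∈ W γ ψ := hae.mono h1
  exact (eventually_add_right_iff volume t (p := fun x => x ∈ W γ ψ)).1 h2

end Vale.Agent.Results.P028.ShiftedSupport
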